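import Vale.Agent.P181.H303.Spec

set_option autoImplicit false

namespace Vale.Agent.P181.H203

open Finset Vale.Agent.P181.H303

lemma exists_unit (n : ℕ) : ∃ u : EE (n + 1), ‖u‖ = 1 :=
  ⟨EuclideanSpace.single 0 1, by simp⟩

lemma bd_nonneg {n b : ℕ} {T : MvPolynomial (Fin (n + 1)) ℂ →ₗ[ℂ] ℂ} {M : ℝ}
    (h : ∀ u : EE (n + 1), ‖u‖ = 1 → ‖T (lin u ^ b)‖ ≤ M) : 0 ≤ M := by
  obtain ⟨u, hu⟩ := exists_unit n
  exact le_trans (norm_nonneg _) (h u hu)

lemma bd_mono {n b : ℕ} {h : MvPolynomial (Fin (n + 1)) ℂ} {c c' : ℝ} (hc : c ≤ c')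
    (hb : Bd b h c) : Bd b h c' := by
  intro T M hM
  have h0 := bd_nonneg hM
  exact le_trans (hb T M hM) (mul_le_mul_of_nonneg_right hc h0)

lemma bd_sum {n b : ℕ} {κ : Type*} (P : Finset κ) (W : κ → ℂ)
    (h : κ → MvPolynomial (Fin (n + 1)) ℂ) (c : ℝ) (hc : 0 ≤ c)
    (hW : ∑ p ∈ P, ‖W p‖ ≤ 1) (hb : ∀ p ∈ P, Bd b (h p) c) :
    Bd b (∑ p ∈ P, W p • h p) c := by
  intro T M hM
  have h0 := bd_nonneg hM
  rw [map_sum]
  calc ‖∑ p ∈ P, T (W p • h p)‖ ≤ ∑ p ∈ P, ‖T (W p • h p)‖ := norm_sum_le _ _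
    _ ≤ ∑ p ∈ P, ‖W p‖ * (c * M) := by
        apply Finset.sum_le_sum
        intro p hp
        rw [map_smul, norm_smul]
        exact mul_le_mul_of_nonneg_left (hb p hp T M hM) (norm_nonneg _)
    _ = (∑ p ∈ P, ‖W p‖) * (c * M) := by rw [Finset.sum_mul]
    _ ≤ 1 * (c * M) := mul_le_mul_of_nonneg_right hW (mul_nonneg hc h0)
    _ = c * M := one_mul _

lemma bd_prod {n b q : ℕ} (G : Fin q → Set (MvPolynomial (Fin (n + 1)) ℂ)) (C : ℝ) (hC : 0 ≤ C)
    (H : ∀ m : Fin q → MvPolynomial (Fin (n + 1)) ℂ, (∀ l, m l ∈ G l) → Bd b (∏ l, m l) C)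
    (g : Fin q → MvPolynomial (Fin (n + 1)) ℂ) (hg : ∀ l, g l ∈ AH (G l) 1) :
    Bd b (∏ l, g l) C := by
  choose m w e he hw hsum using hg
  have h1 : ∏ l, g l = ∑ p ∈ Fintype.piFinset (fun l => (univ : Finset (Fin (m l)))),
      (∏ l, w l (p l)) • ∏ l, e l (p l) := by
    have : ∏ l, g l = ∏ l, ∑ i ∈ (univ : Finset (Fin (m l))), w l i • e l i := by
      apply Finset.prod_congr rfl
      intro l _
      exact hsum l
    rw [this, Finset.prod_univ_sum]
    apply Finset.sum_congr rfl
    intro p _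
    rw [Finset.prod_smul]
  rw [h1]
  apply bd_sum _ _ _ C hC
  · have h2 : ∑ p ∈ Fintype.piFinset (fun l => (univ : Finset (Fin (m l)))),
        ‖∏ l, w l (p l)‖ = ∏ l, ∑ i, ‖w l i‖ := by
      rw [Finset.prod_univ_sum]
      apply Finset.sum_congr rfl
      intro p _
      rw [norm_prod]
    rw [h2]
    apply Finset.prod_le_one
    · intro l _
      exact Finset.sum_nonneg (fun i _ => norm_nonneg _)
    · intro l _
      exact hw l
  · intro p _
    apply H
    intro l
    exact he l (p l)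

theorem rowMIX (hCO : RowCO) : RowMIX := by
  intro a q n S x cl δ ha hS hx hcl hδ hsep c g hg
  have hb1 : (1 : ℝ) ≤ ((q * a : ℕ) + 1 : ℝ) := by
    have : (0 : ℝ) ≤ ((q * a : ℕ) : ℝ) := Nat.cast_nonneg _
    linarith
  -- the set of indices which occur
  have key : ∀ m : Fin q → MvPolynomial (Fin (n + 1)) ℂ,
      (∀ l, m l ∈ MonoF (fun i => lin (x i)) (univ.filter (fun i => cl i = c l)) a) →
      Bd (q * a) (∏ l, m l) (((q * a : ℕ) + 1 : ℝ) ^ (q * S)) ∧
      ((∃ l l', c l ≠ c l') → Bd (q * a) (∏ l, m l)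
        (((q * a : ℕ) + 1 : ℝ) ^ (q * S) * Real.exp (-((a : ℝ) / S * δ / 4)))) := by
    intro m hm
    choose α hα0 hαs hαm using hm
    set U : Finset (Fin a) := univ.filter (fun i => ∃ l, cl i = c l) with hU
    have hcardU : U.card ≤ q * S := by
      have h1 : U ⊆ (univ : Finset (Fin q)).biUnion (fun l => univ.filter (fun i => cl i = c l)) := by
        intro i hi
        simp only [hU, mem_filter, mem_univ, true_and] at hi
        obtain ⟨l, hl⟩ := hi
        simp only [mem_biUnion, mem_filter, mem_univ, true_and]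
        exact ⟨l, hl⟩
      calc U.card ≤ _ := Finset.card_le_card h1
        _ ≤ ∑ l : Fin q, (univ.filter (fun i => cl i = c l)).card := Finset.card_biUnion_le
        _ ≤ ∑ l : Fin q, S := Finset.sum_le_sum (fun l _ => hcl (c l))
        _ = q * S := by simp
    let mm : Fin a → ℕ := fun i => ∑ l, α l i
    have hmm0 : ∀ i, i ∉ U → mm i = 0 := by
      intro i hi
      simp only [hU, mem_filter, mem_univ, true_and, not_exists] at hi
      apply Finset.sum_eq_zero
      intro l _
      apply hα0 l i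
      simp only [mem_filter, mem_univ, true_and]
      exact hi l
    have hprod : ∏ l, m l = ∏ i : U, lin (x i) ^ mm i := by
      have h1 : ∏ l, m l = ∏ i, lin (x i) ^ mm i := by
        calc ∏ l, m l = ∏ l, ∏ i, lin (x i) ^ α l i :=
              Finset.prod_congr rfl (fun l _ => hαm l)
          _ = ∏ i, ∏ l, lin (x i) ^ α l i := Finset.prod_comm
          _ = ∏ i, lin (x i) ^ mm i := by
              apply Finset.prod_congr rfl
              intro i _
              rw [Finset.prod_pow_eq_pow_sum]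
      rw [h1, Finset.prod_coe_sort U (fun i => lin (x i) ^ mm i)]
      symm
      apply Finset.prod_subset (Finset.subset_univ _)
      intro i _ hi
      rw [hmm0 i hi, pow_zero]
    have hsum : ∑ i : U, mm i = q * a := by
      rw [Finset.sum_coe_sort U mm]
      have h1 : ∑ i ∈ U, mm i = ∑ i, mm i := by
        apply Finset.sum_subset (Finset.subset_univ _)
        intro i _ hi
        exact hmm0 i hi
      rw [h1, Finset.sum_comm]
      simp [hαs]
    obtain ⟨hco1, hco2⟩ := hCO n (q * a) U (fun i => x i) (fun i => mm i) (fun i => hx i) hsum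
    rw [hprod]
    have hcard : Fintype.card U = U.card := Fintype.card_coe U
    rw [hcard] at hco1 hco2
    have hpow : ((q * a : ℕ) + 1 : ℝ) ^ U.card ≤ ((q * a : ℕ) + 1 : ℝ) ^ (q * S) :=
      pow_le_pow_right₀ hb1 hcardU
    refine ⟨bd_mono hpow hco1, ?_⟩
    rintro ⟨l, l', hll⟩
    -- pigeonhole
    have pig : ∀ l, ∃ i, cl i = c l ∧ (a : ℝ) / S ≤ mm i := by
      intro l
      by_contra hcon
      push Not at hcon
      set R : Finset (Fin a) := univ.filter (fun i => cl i = c l) with hR
      have hSpos : (0 : ℝ) < S := by exact_mod_cast hS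
      have hapos : (0 : ℝ) < a := by exact_mod_cast ha
      have hsumR : ∑ i ∈ R, α l i = a := by
        refine Eq.trans (Finset.sum_subset (Finset.subset_univ _) ?_) (hαs l)
        intro i _ hi
        exact hα0 l i hi
      have hRne : R.Nonempty := by
        by_contra hne
        rw [Finset.not_nonempty_iff_eq_empty] at hne
        rw [hne] at hsumR
        simp at hsumR
        omega
      have hlt : ∑ i ∈ R, (α l i : ℝ) < ∑ i ∈ R, (a : ℝ) / S := by
        apply Finset.sum_lt_sum_of_nonempty hRne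
        intro i hi
        have hi' : cl i = c l := by
          simpa [hR] using hi
        have h3 := hcon i hi'
        have h4 : (α l i : ℝ) ≤ (mm i : ℝ) := by
          have : α l i ≤ mm i :=
            Finset.single_le_sum (f := fun l => α l i) (fun _ _ => Nat.zero_le _) (mem_univ l)
          exact_mod_cast this
        linarith
      have h5 : ∑ i ∈ R, (a : ℝ) / S ≤ a := by
        rw [Finset.sum_const, nsmul_eq_mul]
        have : (R.card : ℝ) ≤ S := by exact_mod_cast hcl (c l)
        calc (R.card : ℝ) * ((a : ℝ) / S) ≤ S * ((a : ℝ) / S) :=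
              mul_le_mul_of_nonneg_right this (by positivity)
          _ = a := by field_simp
      have h6 : ∑ i ∈ R, (α l i : ℝ) = a := by exact_mod_cast hsumR
      linarith
    obtain ⟨i, hi, hit⟩ := pig l
    obtain ⟨j, hj, hjt⟩ := pig l'
    have hiU : i ∈ U := by simp only [hU, mem_filter, mem_univ, true_and]; exact ⟨l, hi⟩
    have hjU : j ∈ U := by simp only [hU, mem_filter, mem_univ, true_and]; exact ⟨l', hj⟩
    have hclij : cl i ≠ cl j := by rw [hi, hj]; exact hll
    have hij : (⟨i, hiU⟩ : U) ≠ ⟨j, hjU⟩ := by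
      intro h
      apply hclij
      have : i = j := by simpa using h
      rw [this]
    have := hco2 ⟨i, hiU⟩ ⟨j, hjU⟩ ((a : ℝ) / S) δ hij (by positivity) hit hjt hδ
      (hsep i j hclij)
    refine bd_mono ?_ this
    exact mul_le_mul_of_nonneg_right hpow (Real.exp_pos _).le
  refine ⟨bd_prod _ _ (by positivity) (fun m hm => (key m hm).1) g hg, ?_⟩
  intro hne
  exact bd_prod _ _ (by positivity) (fun m hm => (key m hm).2 hne) g hg

end Vale.Agent.P181.H203
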